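import Vale.Agent.P086.Main

/-- The free group factors `L(F_m)`, `2 ≤ m ≤ ∞`, are all star-isomorphic. -/
theorem Vale.Agent.Results.P086.AllIsomorphic.result (m n : ℕ∞) (hm : 2 ≤ m) (hn : 2 ≤ n) :
    Vale.Agent.P086.VNIsomorphic (Vale.Agent.P086.FreeGroupOfRank m)
      (Vale.Agent.P086.FreeGroupOfRank n) :=
  Vale.Agent.P086.all_iso m n hm hn
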